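import Vale.Agent.P242.H588.Concl

/-! P242, Part B: from almost isometric affine approximations to the conclusion. -/

open Filter Topology Metric Set

namespace Vale.Agent.P242.H588

variable {X E : Type*} [MetricSpace X] [NormedAddCommGroup E] [NormedSpace ℝ E]

/-- What is used of a level: `q k x v` is the norm `|v|_{k,x}`, `J k x` the almost isometric linear
part of `F k` at `x` at the scale `r_k`. -/
structure Level (r₀ Lam C0 s : ℝ) (u : X → E) (q : ℕ → X → E → ℝ) (F : ℕ → X → E)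
    (J : ℕ → X → E →L[ℝ] E) (k : ℕ) : Prop where
  /-- (I1) -/
  lin : ∀ x y, dist x y ≤ rr r₀ Lam k →
    ‖F k y - F k x - J k x (u y - u x)‖ ≤ s * dist x y
  /-- (I3) -/
  upJ : ∀ x v, ‖J k x v‖ ≤ (1 + s) * q k x v
  loJ : ∀ x v, (1 - s) * q k x v ≤ ‖J k x v‖
  /-- (h1) -/
  h1 : ∀ x y, dist x y ≤ C0 * rr r₀ Lam k →
    |q k x (u y - u x) - dist x y| ≤ s / Lam * rr r₀ Lam k

variable {r₀ Lam C0 s : ℝ} {u : X → E} {q : ℕ → X → E → ℝ} {F : ℕ → X → E}
  {J : ℕ → X → E →L[ℝ] E}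

/-- the upper bound at the scale `r_k` -/
lemma Level.upper {k : ℕ} (h : Level r₀ Lam C0 s u q F J k) (h0 : 0 < r₀) (hL : 2 ≤ Lam)
    (hs0 : 0 ≤ s) (hs : s ≤ 1 / 100) (hC0 : 1 ≤ C0) {x y : X}
    (hd1 : rr r₀ Lam (k + 1) ≤ dist x y) (hd2 : dist x y ≤ rr r₀ Lam k) :
    ‖F k x - F k y‖ ≤ 11 / 10 * dist x y := by
  have hr := rr_pos h0 hL k
  have hrC : dist x y ≤ C0 * rr r₀ Lam k := hd2.trans (le_mul_of_one_le_left hr.le hC0)
  have e1 := h.lin x y hd2
  have e2 := h.upJ x (u y - u x)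
  have e3 := (abs_le.1 (h.h1 x y hrC)).2
  have e4 : s / Lam * rr r₀ Lam k = s * rr r₀ Lam (k + 1) := by
    rw [rr_succ hL]; field_simp
  rw [e4] at e3
  have e5 : s * rr r₀ Lam (k + 1) ≤ s * dist x y := mul_le_mul_of_nonneg_left hd1 hs0
  have e6 : q k x (u y - u x) ≤ (1 + s) * dist x y := by linarith
  have e7 : ‖J k x (u y - u x)‖ ≤ (1 + s) * ((1 + s) * dist x y) :=
    e2.trans (mul_le_mul_of_nonneg_left e6 (by linarith))
  have e8 : ‖F k x - F k y‖ ≤ ‖J k x (u y - u x)‖ + ‖F k y - F k x - J k x (u y - u x)‖ := by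
    have : F k x - F k y = -(J k x (u y - u x)) - (F k y - F k x - J k x (u y - u x)) := by abel
    rw [this]
    refine (norm_sub_le _ _).trans ?_
    rw [norm_neg]
  have hd := dist_nonneg (x := x) (y := y)
  have e9 : (1 + s) * ((1 + s) * dist x y) ≤ 21 / 20 * dist x y := by
    have : (1 + s) * (1 + s) ≤ 21 / 20 := by nlinarith
    calc (1 + s) * ((1 + s) * dist x y) = ((1 + s) * (1 + s)) * dist x y := by ring
      _ ≤ 21 / 20 * dist x y := by gcongr
  have e10 : s * dist x y ≤ 1 / 100 * dist x y := by gcongr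
  linarith

/-- one step of the iteration for the openness -/
lemma Level.dense {k : ℕ} (h : Level r₀ Lam C0 s u q F J k) (h0 : 0 < r₀) (hL : 2 ≤ Lam)
    (hs0 : 0 ≤ s) (hs : s ≤ 1 / 100) (hsL : s * Lam ≤ 1 / 100) (hC0 : 1 ≤ C0)
    (hqadd : ∀ x v w, q k x (v + w) ≤ q k x v + q k x w)
    {y : X} (hJ : Function.Surjective (J k y))
    (hdens : ∀ v : E, q k y v ≤ rr r₀ Lam k → ∃ y', dist y y' ≤ C0 * rr r₀ Lam k ∧
      q k y (u y' - u y - v) ≤ s * rr r₀ Lam k) {z : E}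
    (hz : ‖z - F k y‖ ≤ rr r₀ Lam k / 2) :
    ∃ y', dist y y' ≤ rr r₀ Lam k ∧ ‖F k y' - z‖ ≤ rr r₀ Lam (k + 1) / 4 := by
  have hr := rr_pos h0 hL k
  obtain ⟨v, hv⟩ := hJ (z - F k y)
  have hlo := h.loJ y v
  rw [hv] at hlo
  have hqv : q k y v ≤ 11 / 20 * rr r₀ Lam k := by
    have h1 : (1 - s) * q k y v ≤ rr r₀ Lam k / 2 := hlo.trans hz
    have h2 : (99 / 100 : ℝ) ≤ 1 - s := by linarith
    by_contra hcon
    push Not at hcon
    have h3 : 0 < q k y v := lt_trans (by positivity) hcon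
    have h4 : 99 / 100 * q k y v ≤ (1 - s) * q k y v := by gcongr
    linarith
  obtain ⟨y', hy1, hy2⟩ := hdens v (by linarith)
  have hqw : q k y (u y' - u y) ≤ 3 / 5 * rr r₀ Lam k := by
    have h1 := hqadd y (u y' - u y - v) v
    have e : u y' - u y - v + v = u y' - u y := by abel
    rw [e] at h1
    have h2 : s * rr r₀ Lam k ≤ 1 / 100 * rr r₀ Lam k := by gcongr
    linarith
  have hd : dist y y' ≤ 7 / 10 * rr r₀ Lam k := by
    have h1 := (abs_le.1 (h.h1 y y' hy1)).1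
    have h2 : s / Lam * rr r₀ Lam k ≤ 1 / 100 * rr r₀ Lam k := by
      refine mul_le_mul_of_nonneg_right ?_ hr.le
      rw [div_le_iff₀ (by linarith)]
      nlinarith
    linarith
  refine ⟨y', by linarith, ?_⟩
  have e1 := h.lin y y' (by linarith)
  have e2 := h.upJ y (u y' - u y - v)
  have e3 : F k y' - z = (F k y' - F k y - J k y (u y' - u y)) + J k y (u y' - u y - v) := by
    rw [map_sub (J k y) (u y' - u y) v, hv]
    abel
  rw [e3]
  refine (norm_add_le _ _).trans ?_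
  have e4 : s * dist y y' ≤ s * (7 / 10 * rr r₀ Lam k) := by gcongr
  have e5 : ‖J k y (u y' - u y - v)‖ ≤ (1 + s) * (s * rr r₀ Lam k) := by
    refine e2.trans ?_
    gcongr
  have e6 : (1 + s) * (s * rr r₀ Lam k) ≤ 2 * (s * rr r₀ Lam k) := by
    have : 0 ≤ s * rr r₀ Lam k := by positivity
    nlinarith
  have e7 : s * rr r₀ Lam k ≤ rr r₀ Lam (k + 1) / 100 := by
    rw [rr_succ hL]
    have : s ≤ 1 / (100 * Lam) := by
      rw [le_div_iff₀ (by positivity)]
      linarith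
    calc s * rr r₀ Lam k ≤ 1 / (100 * Lam) * rr r₀ Lam k := by gcongr
      _ = _ := by field_simp
  have e8 := rr_pos h0 hL (k + 1)
  linarith

end Vale.Agent.P242.H588
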