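import Mathlib.Analysis.SpecificLimits.Basic
import Mathlib.Analysis.Normed.Group.Basic
import Mathlib.Analysis.Normed.Module.Basic
import Mathlib.Topology.MetricSpace.Lipschitz
import Mathlib.Tactic

/-! P242, Part B: the limit of a sequence of maps which are almost isometric at the scales
`r₀ / Lam ^ k`, and openness of the limit. -/

open Filter Topology Metric Set

namespace Vale.Agent.P242.H588

/-- the scales -/
noncomputable def rr (r₀ Lam : ℝ) (k : ℕ) : ℝ := r₀ / Lam ^ k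

section scales

variable {r₀ Lam : ℝ}

lemma rr_zero : rr r₀ Lam 0 = r₀ := by simp [rr]

lemma rr_pos (h0 : 0 < r₀) (hL : 2 ≤ Lam) (k : ℕ) : 0 < rr r₀ Lam k := by
  unfold rr; positivity

lemma rr_succ (hL : 2 ≤ Lam) (k : ℕ) : rr r₀ Lam (k + 1) = rr r₀ Lam k / Lam := by
  unfold rr
  rw [pow_succ, div_div]

lemma rr_succ_le (h0 : 0 < r₀) (hL : 2 ≤ Lam) (k : ℕ) :
    rr r₀ Lam (k + 1) ≤ rr r₀ Lam k / 2 := by
  rw [rr_succ hL]
  have := rr_pos h0 hL k
  gcongr

lemma rr_anti (h0 : 0 < r₀) (hL : 2 ≤ Lam) : Antitone (rr r₀ Lam) := by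
  refine antitone_nat_of_succ_le fun k => ?_
  have h1 := rr_succ_le h0 hL k
  have h2 := rr_pos h0 hL k
  linarith

lemma rr_le_geom (h0 : 0 < r₀) (hL : 2 ≤ Lam) (k n : ℕ) :
    rr r₀ Lam (k + n) ≤ rr r₀ Lam k * (1 / 2) ^ n := by
  induction n with
  | zero => simp
  | succ n ih =>
    have h1 := rr_succ_le h0 hL (k + n)
    rw [← add_assoc, pow_succ]
    linarith

lemma tendsto_rr (h0 : 0 < r₀) (hL : 2 ≤ Lam) : Tendsto (rr r₀ Lam) atTop (𝓝 0) := by
  have h1 : Tendsto (fun n : ℕ => rr r₀ Lam 0 * (1 / 2 : ℝ) ^ n) atTop (𝓝 0) := by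
    have := (tendsto_pow_atTop_nhds_zero_of_lt_one (r := (1 / 2 : ℝ)) (by norm_num)
      (by norm_num)).const_mul (rr r₀ Lam 0)
    simpa using this
  refine squeeze_zero (fun n => (rr_pos h0 hL n).le) (fun n => ?_) h1
  have := rr_le_geom h0 hL 0 n
  rwa [zero_add] at this

lemma exists_scale (h0 : 0 < r₀) (hL : 2 ≤ Lam) {d : ℝ} (hd : 0 < d) (hd0 : d ≤ r₀) :
    ∃ k, rr r₀ Lam (k + 1) ≤ d ∧ d ≤ rr r₀ Lam k := by
  classical
  have hex : ∃ k, rr r₀ Lam (k + 1) ≤ d := by
    have h1 := ((tendsto_rr h0 hL).comp (tendsto_add_atTop_nat 1)).eventually (gt_mem_nhds hd)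
    obtain ⟨k, hk⟩ := h1.exists
    exact ⟨k, hk.le⟩
  refine ⟨Nat.find hex, Nat.find_spec hex, ?_⟩
  rcases Nat.eq_zero_or_pos (Nat.find hex) with h | h
  · rw [h, rr_zero]; exact hd0
  · have h2 := Nat.find_min hex (m := Nat.find hex - 1) (by omega)
    push Not at h2
    have e : Nat.find hex - 1 + 1 = Nat.find hex := by omega
    rw [e] at h2
    exact h2.le

end scales

variable {X E : Type*} [MetricSpace X] [NormedAddCommGroup E]

/-- a sequence of maps, almost isometric at the scales `r_k` -/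
structure Conv (r₀ Lam : ℝ) (F : ℕ → X → E) : Prop where
  rpos : 0 < r₀
  two_le : 2 ≤ Lam
  diam : ∀ x y : X, dist x y ≤ r₀
  close : ∀ k x, ‖F (k + 1) x - F k x‖ ≤ rr r₀ Lam (k + 1) / 100
  upper : ∀ k x y, rr r₀ Lam (k + 1) ≤ dist x y → dist x y ≤ rr r₀ Lam k →
    ‖F k x - F k y‖ ≤ 11 / 10 * dist x y
  lower : ∀ k x y, rr r₀ Lam (k + 1) ≤ dist x y →
    4 / 5 * dist x y + rr r₀ Lam (k + 1) / 20 ≤ ‖F k x - F k y‖

variable {r₀ Lam : ℝ} {F : ℕ → X → E}

/-- **the limit** -/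
theorem Conv.exists_limit [CompleteSpace E] (h : Conv r₀ Lam F) :
    ∃ G : X → E, (∀ k x, ‖F k x - G x‖ ≤ rr r₀ Lam (k + 1) / 50) ∧
      ∀ x y, 1 / 2 * dist x y ≤ ‖G x - G y‖ ∧ ‖G x - G y‖ ≤ 2 * dist x y := by
  have h0 := h.rpos
  have hL := h.two_le
  have hq : 1 / Lam < 1 := by rw [div_lt_one (by linarith)]; linarith
  have hgeo : ∀ x n, dist (F n x) (F (n + 1) x) ≤ r₀ / (100 * Lam) * (1 / Lam) ^ n := by
    intro x n
    rw [dist_comm, dist_eq_norm]
    refine (h.close n x).trans (le_of_eq ?_)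
    unfold rr
    rw [pow_succ, one_div, inv_pow]
    field_simp
  have hC : ∀ x, CauchySeq fun n => F n x := fun x =>
    cauchySeq_of_le_geometric _ _ hq (hgeo x)
  choose G hG using fun x => cauchySeq_tendsto_of_complete (hC x)
  have hclose : ∀ k x, ‖F k x - G x‖ ≤ rr r₀ Lam (k + 1) / 50 := by
    intro k x
    have h1 := dist_le_of_le_geometric_of_tendsto _ _ hq (hgeo x) (hG x) k
    rw [dist_eq_norm] at h1
    refine h1.trans ?_
    have h2 : r₀ / (100 * Lam) * (1 / Lam) ^ k = rr r₀ Lam (k + 1) / 100 := by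
      unfold rr
      rw [pow_succ, one_div, inv_pow]
      field_simp
    rw [h2]
    have h3 : 1 / 2 ≤ 1 - 1 / Lam := by
      have : 1 / Lam ≤ 1 / 2 := one_div_le_one_div_of_le (by norm_num) hL
      linarith
    have h4 := rr_pos h0 hL (k + 1)
    rw [div_le_div_iff₀ (by linarith) (by norm_num)]
    nlinarith
  refine ⟨G, hclose, fun x y => ?_⟩
  rcases eq_or_ne x y with hxy | hxy
  · subst hxy; simp
  · have hd : 0 < dist x y := dist_pos.2 hxy
    obtain ⟨k, hk1, hk2⟩ := exists_scale h0 hL hd (h.diam x y)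
    have e1 := hclose k x
    have e2 := hclose k y
    have e3 := h.upper k x y hk1 hk2
    have e4 := h.lower k x y hk1
    have e5 : ‖G x - G y‖ ≤ ‖F k x - F k y‖ + ‖F k x - G x‖ + ‖F k y - G y‖ := by
      have : G x - G y = (F k x - F k y) - (F k x - G x) + (F k y - G y) := by abel
      rw [this]
      refine (norm_add_le _ _).trans ?_
      gcongr
      exact norm_sub_le _ _
    have e6 : ‖F k x - F k y‖ ≤ ‖G x - G y‖ + ‖F k x - G x‖ + ‖F k y - G y‖ := by
      have : F k x - F k y = (G x - G y) + (F k x - G x) - (F k y - G y) := by abel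
      rw [this]
      refine (norm_sub_le _ _).trans ?_
      gcongr
      exact norm_add_le _ _
    constructor <;> linarith

/-- **openness** -/
theorem Conv.ball_subset_image [CompleteSpace X] (h : Conv r₀ Lam F) {G : X → E}
    (hG : ∀ k x, ‖F k x - G x‖ ≤ rr r₀ Lam (k + 1) / 50)
    (hG2 : ∀ x y, ‖G x - G y‖ ≤ 2 * dist x y) {x₀ : X} {k : ℕ}
    (hdense : ∀ j, k ≤ j → ∀ y ∈ ball x₀ (10 * rr r₀ Lam k), ∀ z : E,
      ‖z - F j y‖ ≤ rr r₀ Lam j / 2 →
      ∃ y', dist y y' ≤ rr r₀ Lam j ∧ ‖F j y' - z‖ ≤ rr r₀ Lam (j + 1) / 4) :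
    ball (G x₀) (rr r₀ Lam k / 4) ⊆ G '' ball x₀ (10 * rr r₀ Lam k) := by
  have h0 := h.rpos
  have hL := h.two_le
  intro z hz
  rw [mem_ball, dist_eq_norm] at hz
  have hrk := rr_pos h0 hL k
  let P : ℕ → X → Prop := fun n y =>
    dist x₀ y ≤ 2 * rr r₀ Lam k - 2 * rr r₀ Lam (k + n) ∧ ‖z - F (k + n) y‖ ≤ rr r₀ Lam (k + n) / 2
  have hP0 : P 0 x₀ := by
    refine ⟨by simp, ?_⟩
    have e1 := hG k x₀
    have e2 := rr_succ_le h0 hL k
    have e3 : z - F k x₀ = (z - G x₀) - (F k x₀ - G x₀) := by abel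
    rw [add_zero, e3]
    refine (norm_sub_le _ _).trans ?_
    linarith
  have step : ∀ n (y : {y // P n y}), ∃ y' : {y' // P (n + 1) y'},
      dist y.1 y'.1 ≤ rr r₀ Lam (k + n) := by
    rintro n ⟨y, hy1, hy2⟩
    have hrn := rr_pos h0 hL (k + n)
    have hmem : y ∈ ball x₀ (10 * rr r₀ Lam k) := by
      rw [mem_ball, dist_comm]
      linarith
    obtain ⟨y', hy', hz'⟩ := hdense (k + n) (by omega) y hmem z hy2
    have e2 := rr_succ_le h0 hL (k + n)
    have e2' := rr_pos h0 hL (k + n + 1)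
    refine ⟨⟨y', ?_, ?_⟩, hy'⟩
    · rw [← add_assoc]
      have := dist_triangle x₀ y y'
      linarith
    · rw [← add_assoc]
      have e1 := h.close (k + n) y'
      have e3 : z - F (k + n + 1) y' = -(F (k + n) y' - z) - (F (k + n + 1) y' - F (k + n) y') := by
        abel
      rw [e3]
      refine (norm_sub_le _ _).trans ?_
      rw [norm_neg]
      linarith
  choose nxt hnxt using step
  let s : (n : ℕ) → {y // P n y} := fun n => Nat.rec ⟨x₀, hP0⟩ (fun n y => nxt n y) n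
  have hs : ∀ n, dist (s n).1 (s (n + 1)).1 ≤ rr r₀ Lam (k + n) := fun n => hnxt n (s n)
  have hcau : CauchySeq fun n => (s n).1 :=
    cauchySeq_of_le_geometric (1 / 2) (rr r₀ Lam k) (by norm_num)
      fun n => (hs n).trans (rr_le_geom h0 hL k n)
  obtain ⟨a, ha⟩ := cauchySeq_tendsto_of_complete hcau
  have htr : Tendsto (fun n => rr r₀ Lam (k + n)) atTop (𝓝 0) := by
    have := (tendsto_rr h0 hL).comp (tendsto_add_atTop_nat k)
    refine this.congr fun n => ?_
    simp [add_comm]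
  refine ⟨a, ?_, ?_⟩
  · have h1 : dist x₀ a ≤ 2 * rr r₀ Lam k := by
      have h2 : Tendsto (fun n => dist x₀ (s n).1) atTop (𝓝 (dist x₀ a)) :=
        tendsto_const_nhds.dist ha
      refine le_of_tendsto h2 (Eventually.of_forall fun n => ?_)
      have := (s n).2.1
      have h3 := rr_pos h0 hL (k + n)
      linarith
    rw [mem_ball, dist_comm]
    linarith
  · -- `G a = z`
    have h1 : Tendsto (fun n => G (s n).1) atTop (𝓝 (G a)) := by
      rw [tendsto_iff_dist_tendsto_zero]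
      have h2 : Tendsto (fun n => 2 * dist (s n).1 a) atTop (𝓝 0) := by
        have := (tendsto_iff_dist_tendsto_zero.1 ha).const_mul 2
        simpa using this
      refine squeeze_zero (fun n => dist_nonneg) (fun n => ?_) h2
      rw [dist_eq_norm]
      exact hG2 _ _
    have h3 : Tendsto (fun n => G (s n).1) atTop (𝓝 z) := by
      rw [tendsto_iff_dist_tendsto_zero]
      refine squeeze_zero (fun n => dist_nonneg) (fun n => ?_) htr
      have e1 := (s n).2.2
      have e2 := hG (k + n) (s n).1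
      have e3 := rr_succ_le h0 hL (k + n)
      have e5 := rr_pos h0 hL (k + n)
      have e4 : G (s n).1 - z = -(F (k + n) (s n).1 - G (s n).1) - (z - F (k + n) (s n).1) := by
        abel
      rw [dist_eq_norm, e4]
      refine (norm_sub_le _ _).trans ?_
      rw [norm_neg]
      linarith
    exact tendsto_nhds_unique h1 h3

end Vale.Agent.P242.H588
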