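import Mathlib.Analysis.InnerProductSpace.Spectrum
import Vale.Agent.P242.H975.Defs
import Vale.Agent.P242.H744.Limit

/-!
# P242, Part B (package B-c): bridge, start and iteration

From the step lemma to the bi-Lipschitz chart.
-/

open scoped RealInnerProductSpace Topology
open Metric Set

noncomputable section

namespace Vale.Agent.P242.PB

universe u

variable {X : Type u} {E : Type} [MetricSpace X] [NormedAddCommGroup E] [InnerProductSpace ℝ E]

/-- smallness conditions on the parameters -/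
structure SmallPar (P : Par) (κ θ θ' B3 : ℝ) : Prop where
  r0 : 0 < P.r0
  hΛ : 100 ≤ P.Λ
  C0 : 1 ≤ P.C0
  C1 : 1 ≤ P.C1
  B : 0 ≤ P.B
  ε0 : 0 ≤ P.ε
  εΛ : 100 * P.ε * P.Λ ≤ 1
  εC : 20 * P.C1 * P.ε ≤ 1
  Bδ : P.B * P.δ ≤ P.ε
  κ0 : 0 ≤ κ
  κΛ : 200 * κ * P.Λ ≤ 1
  θ1 : P.C1 ≤ θ
  θ'1 : P.C1 ≤ θ'
  hB3 : 0 ≤ B3
  sm : θ * P.ε + 2 * B3 * P.δ ≤ 1 / 50

namespace SmallPar

variable {P : Par} {κ θ θ' B3 : ℝ} (S : SmallPar P κ θ θ' B3)
include S

lemma Λ0 : 0 < P.Λ := lt_of_lt_of_le (by norm_num) S.hΛ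

lemma r_pos (k : ℕ) : 0 < P.r k := div_pos S.r0 (pow_pos S.Λ0 k)

lemma r_succ (k : ℕ) : P.r (k + 1) = P.r k / P.Λ := by
  rw [Par.r, Par.r, pow_succ, div_div]

lemma r_succ' (k : ℕ) : P.r k = P.Λ * P.r (k + 1) := by
  have := S.Λ0.ne'
  rw [S.r_succ]; field_simp

lemma ε_le : P.ε ≤ 1 / 10000 := by
  have h1 := S.εΛ
  have h2 := S.hΛ
  have h3 := S.ε0
  nlinarith [mul_le_mul_of_nonneg_left h2 h3]

lemma C0r (k : ℕ) {d : ℝ} (hd : d ≤ P.r k) : d ≤ P.C0 * P.r k := by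
  have := S.r_pos k
  have := S.C0
  nlinarith

end SmallPar

/-- the density hypothesis of Theorem B at `(x₀, k)` -/
def DenseAt (P : Par) (A : Data X E) (x₀ : X) (k : ℕ) : Prop :=
  ∀ y, dist x₀ y < 10 * P.r k → ∀ j, k ≤ j → ∀ v, A.N j y v ≤ P.r j →
    ∃ y', dist y y' ≤ P.C0 * P.r j ∧ A.N j y (A.u y' - A.u y - v) ≤ P.ε * P.r j

namespace BC

section basic
variable {P : Par} {κ θ θ' B3 : ℝ} {A : Data X E}

lemma D_nonneg (H : Hyp P A) (k : ℕ) (x : X) : 0 ≤ A.D k x := by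
  obtain ⟨d, hd, h⟩ := H.h6a k
  exact hd.le.trans (h x)

lemma D_le (H : Hyp P A) (k : ℕ) (x : X) : A.D k x ≤ P.δ := by
  refine le_trans ?_ (H.h6c (k + 1) x)
  exact Finset.single_le_sum (f := fun j => A.D j x) (fun j _ => D_nonneg H j x)
    (Finset.self_mem_range_succ k)

lemma nn_le (S : SmallPar P κ θ θ' B3) (H : Hyp P A) (k : ℕ) (x : X) (v : E) :
    A.nn k x v ≤ √P.ε * A.N k x v := by
  have h := Real.sqrt_le_sqrt (H.h4a k x v)
  rwa [Real.sqrt_sq (apply_nonneg _ _), Real.sqrt_mul S.ε0, Real.sqrt_sq (apply_nonneg _ _)] at h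

lemma mm_le (S : SmallPar P κ θ θ' B3) (H : Hyp P A) (k : ℕ) (x : X) (v : E) :
    mm P A k x v ≤ √P.ε * A.N k x v := by
  refine max_le (nn_le S H k x v) ?_
  refine mul_le_mul_of_nonneg_right (Real.sqrt_le_sqrt ?_) (apply_nonneg _ _)
  refine le_trans ?_ S.Bδ
  exact mul_le_mul_of_nonneg_left (D_le H k x) S.B

lemma mm_nonneg (k : ℕ) (x : X) (v : E) : 0 ≤ mm P A k x v :=
  le_max_of_le_left (apply_nonneg _ _)

lemma mp_nonneg (k : ℕ) (x y : X) (v : E) : 0 ≤ mp P A k x y v :=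
  le_max_of_le_left (mm_nonneg k x v)

lemma nn_le_mp (k : ℕ) (x y : X) (v : E) : A.nn k x v ≤ mp P A k x y v :=
  le_max_of_le_left (le_max_left _ _)

lemma norm_symm (k : ℕ) (x x' y : X) : A.N k x (A.u x' - A.u y) = A.N k x (A.u y - A.u x') := by
  rw [← map_neg_eq_map, neg_sub]

end basic

section jacobian
variable {P : Par} {κ θ θ' B3 : ℝ} {A : Data X E} (S : SmallPar P κ θ θ' B3) (H : Hyp P A)
include S H

/-- size of the error terms in (I3) -/
lemma err_le {k : ℕ} (s : St P A κ θ θ' B3 k) (x : X) (v : E) :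
    |‖s.J x v‖ ^ 2 - A.N k x v ^ 2| ≤ 1 / 50 * A.N k x v ^ 2 := by
  have h1 := s.I3 x v v
  rw [real_inner_self_eq_norm_sq, H.gN] at h1
  have h2 := s.I3Δ x v v
  have h3 := s.I3R x v v
  have hm := mm_le S H k x v
  have hm0 : 0 ≤ mm P A k x v := mm_nonneg k x v
  have hN0 : 0 ≤ A.N k x v := apply_nonneg _ _
  have hθ : 0 ≤ θ := le_trans (by linarith [S.C1]) S.θ1
  have h4 : θ * mm P A k x v * mm P A k x v ≤ θ * P.ε * A.N k x v ^ 2 := by
    have h5 : mm P A k x v * mm P A k x v ≤ (√P.ε * A.N k x v) * (√P.ε * A.N k x v) :=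
      mul_le_mul hm hm hm0 (hm0.trans hm)
    have h6 : (√P.ε * A.N k x v) * (√P.ε * A.N k x v) = P.ε * A.N k x v ^ 2 := by
      have := Real.mul_self_sqrt S.ε0
      calc (√P.ε * A.N k x v) * (√P.ε * A.N k x v)
          = (√P.ε * √P.ε) * A.N k x v ^ 2 := by ring
        _ = _ := by rw [this]
    rw [h6] at h5
    have := mul_le_mul_of_nonneg_left h5 hθ
    linarith
  have h7 : B3 * ∑ j ∈ Finset.range (k + 1), A.D j x * A.N j x v * A.N j x v
      ≤ 2 * B3 * P.δ * A.N k x v ^ 2 := by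
    have h8 : ∑ j ∈ Finset.range (k + 1), A.D j x * A.N j x v * A.N j x v
        ≤ (∑ j ∈ Finset.range (k + 1), A.D j x) * (2 * A.N k x v ^ 2) := by
      rw [Finset.sum_mul]
      refine Finset.sum_le_sum fun j hj => ?_
      have h9 := H.h7 j k (by have := Finset.mem_range.1 hj; omega) x v
      have h10 := mul_le_mul_of_nonneg_left h9 (D_nonneg H j x)
      linarith
    have h11 := mul_le_mul_of_nonneg_right (H.h6c (k + 1) x)
      (show 0 ≤ 2 * A.N k x v ^ 2 by positivity)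
    have h12 := mul_le_mul_of_nonneg_left (h8.trans h11) S.hB3
    linarith
  have h13 : ‖s.J x v‖ ^ 2 - A.N k x v ^ 2 = s.R x v v + s.Δ x v v := by rw [h1]; ring
  rw [h13]
  refine (abs_add_le _ _).trans ?_
  have h14 := mul_le_mul_of_nonneg_right S.sm (sq_nonneg (A.N k x v))
  linarith

lemma J_upper {k : ℕ} (s : St P A κ θ θ' B3 k) (x : X) (v : E) :
    ‖s.J x v‖ ≤ 51 / 50 * A.N k x v := by
  have h1 := (abs_le.1 (err_le S H s x v)).2
  have hN0 : 0 ≤ A.N k x v := apply_nonneg _ _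
  refine abs_le_of_sq_le_sq' ?_ (by positivity) |>.2
  nlinarith

lemma J_lower {k : ℕ} (s : St P A κ θ θ' B3 k) (x : X) (v : E) :
    A.N k x v ≤ 51 / 50 * ‖s.J x v‖ := by
  have h1 := (abs_le.1 (err_le S H s x v)).1
  refine abs_le_of_sq_le_sq' ?_ (by positivity) |>.2
  nlinarith [sq_nonneg (A.N k x v), sq_nonneg ‖s.J x v‖]

lemma J_surj [FiniteDimensional ℝ E] {k : ℕ} (s : St P A κ θ θ' B3 k) (x : X) (w : E) :
    ∃ v, s.J x v = w := by
  have hinj : Function.Injective (s.J x : E →ₗ[ℝ] E) := by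
    rw [← LinearMap.ker_eq_bot, LinearMap.ker_eq_bot']
    intro v hv
    by_contra hne
    have h1 := H.pos k x v hne
    have h2 := J_lower S H s x v
    have h3 : s.J x v = 0 := hv
    rw [h3, norm_zero, mul_zero] at h2
    linarith
  exact (LinearMap.injective_iff_surjective.1 hinj) w

lemma N_le_two {k : ℕ} {x y : X} (hd : dist x y ≤ P.r k) : A.N k x (A.u y - A.u x) ≤ 2 * P.r k := by
  have h1 := H.h1b k x y (S.C0r k hd)
  rw [norm_symm] at h1
  linarith

lemma mp_le {k : ℕ} {x y : X} (hd : dist x y ≤ P.r k) :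
    mp P A k x y (A.u y - A.u x) ≤ √P.ε * (2 * P.r k) := by
  refine max_le ?_ ?_
  · exact (mm_le S H k x _).trans
      (mul_le_mul_of_nonneg_left (N_le_two S H hd) (Real.sqrt_nonneg _))
  · refine (mm_le S H k y _).trans
      (mul_le_mul_of_nonneg_left ?_ (Real.sqrt_nonneg _))
    rw [norm_symm]
    rw [dist_comm] at hd
    exact N_le_two S H hd

/-- **Bridge.** The tower of Part B's conclusion from a sequence of states. -/
def tower (s : ∀ k, St P A κ θ θ' B3 k)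
    (hs : ∀ k x, ‖(s (k + 1)).F x - (s k).F x‖ ≤ P.r (k + 1) / 100) : H744.Tower X E where
  r := P.r
  N := fun k x v => A.N k x v
  u := A.u
  F := fun k => (s k).F
  J := fun k => (s k).J
  ε := P.ε
  ε0 := S.ε0
  r0 := S.r_pos
  r1 := fun k => by
    rw [S.r_succ]
    exact div_le_div_of_nonneg_left (S.r_pos k).le (by norm_num) S.hΛ
  rε := fun k => by
    rw [S.r_succ' k]
    have h1 := S.εΛ
    have h2 := S.r_pos (k + 1)
    nlinarith
  diam := fun x y => by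
    have := H.diam x y
    simpa [Par.r] using this
  h1 := fun k x y hd => by
    rw [norm_symm]
    exact H.h1a k x y (S.C0r k hd)
  i1 := fun k x y hd => by
    refine ((s k).I1 x y hd).trans ?_
    have h1 := mp_le S H hd
    have h2 : κ / P.r k * dist x y ≤ κ := by
      have hr := S.r_pos k
      rw [div_mul_eq_mul_div, div_le_iff₀ hr]
      exact mul_le_mul_of_nonneg_left hd S.κ0
    have h3 : κ / P.r k * dist x y * mp P A k x y (A.u y - A.u x) ≤ κ * (√P.ε * (2 * P.r k)) := by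
      refine mul_le_mul h2 h1 (mp_nonneg k x y _) S.κ0
    refine h3.trans ?_
    have h4 : √P.ε ≤ 1 := by
      rw [Real.sqrt_le_one]
      linarith [S.ε_le]
    have h5 := S.r_succ' k
    have h6 := S.r_pos (k + 1)
    have h7 := S.κΛ
    have h8 : κ * (√P.ε * (2 * P.r k)) ≤ κ * (1 * (2 * P.r k)) :=
      mul_le_mul_of_nonneg_left (mul_le_mul_of_nonneg_right h4
        (by have := S.r_pos k; positivity)) S.κ0
    refine h8.trans ?_
    rw [h5]
    nlinarith
  j1 := fun k x v => J_upper S H (s k) x v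
  j2 := fun k x v => J_lower S H (s k) x v
  i5 := fun k x y hd => by
    have := (s k).I5 x y hd
    linarith
  st := hs

end jacobian

section dense
variable {P : Par} {κ θ θ' B3 : ℝ} {A : Data X E} (S : SmallPar P κ θ θ' B3) (H : Hyp P A)
include S H

lemma tower_dense (s : ∀ k, St P A κ θ θ' B3 k)
    (hs : ∀ k x, ‖(s (k + 1)).F x - (s k).F x‖ ≤ P.r (k + 1) / 100) {x₀ : X} {k : ℕ}
    (hD : DenseAt P A x₀ k) : (tower S H s hs).Dense x₀ k := by
  intro y hy j hj v hv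
  change dist x₀ y < 10 * P.r k at hy
  change A.N j y v ≤ 3 / 5 * P.r j at hv
  have hr := S.r_pos j
  obtain ⟨y', h1, h2⟩ := hD y hy j hj v (by linarith)
  refine ⟨y', ?_, ?_⟩
  · change dist y y' ≤ P.r j
    have h3 := (abs_le.1 (H.h1a j y y' h1)).1
    rw [norm_symm] at h3
    have h4 : A.N j y (A.u y' - A.u y) ≤ A.N j y (A.u y' - A.u y - v) + A.N j y v := by
      have := map_add_le_add (A.N j y) (A.u y' - A.u y - v) v
      rwa [sub_add_cancel] at this
    have h5 := S.ε_le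
    nlinarith
  · change A.N j y (A.u y' - A.u y - v) ≤ 2 * (P.ε * P.r j)
    have := mul_nonneg S.ε0 hr.le
    linarith

/-- **Conclusion of Part B from a sequence of states**: the limit map. -/
theorem limit_map [FiniteDimensional ℝ E] (s : ∀ k, St P A κ θ θ' B3 k)
    (hs : ∀ k x, ‖(s (k + 1)).F x - (s k).F x‖ ≤ P.r (k + 1) / 100) :
    ∃ G : X → E, (∀ k x, ‖G x - (s k).F x‖ ≤ P.r (k + 1) / 50) ∧
      (∀ x y, 1 / 2 * dist x y ≤ ‖G x - G y‖ ∧ ‖G x - G y‖ ≤ 2 * dist x y) ∧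
      (∀ [CompleteSpace X] (x₀ : X) (k : ℕ), DenseAt P A x₀ k → ∀ z, ‖z - G x₀‖ ≤ P.r k / 4 →
        ∃ x, dist x₀ x ≤ 8 * P.r k ∧ G x = z) := by
  have : CompleteSpace E := FiniteDimensional.complete ℝ E
  obtain ⟨G, hG⟩ := (tower S H s hs).exists_limit
  refine ⟨G, hG, (tower S H s hs).biLip hG, ?_⟩
  intro _ x₀ k hD z hz
  exact (tower S H s hs).open_of_dense' hG (fun k x w => J_surj S H (s k) x w)
    (tower_dense S H s hs hD) hz

end dense

section start

/-- A positive definite symmetric form is the pull-back of the inner product. -/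
lemma exists_sqrt [FiniteDimensional ℝ E] (b : Bi E) (hs : ∀ v w, b v w = b w v)
    (hp : ∀ v, 0 ≤ b v v) : ∃ L : E →L[ℝ] E, ∀ v w, ⟪L v, L w⟫ = b v w := by
  have : CompleteSpace E := FiniteDimensional.complete ℝ E
  -- the operator
  let T : E →ₗ[ℝ] E :=
    { toFun := fun v => (InnerProductSpace.toDual ℝ E).symm (b v)
      map_add' := fun v w => by rw [map_add, map_add]
      map_smul' := fun c v => by rw [map_smul, map_smulₛₗ]; simp }
  have hT : ∀ v w, ⟪T v, w⟫ = b v w := by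
    intro v w
    change ⟪(InnerProductSpace.toDual ℝ E).symm (b v), w⟫ = b v w
    rw [InnerProductSpace.toDual_symm_apply]
  have hsym : T.IsSymmetric := by
    intro v w
    rw [hT, real_inner_comm, hT, hs]
  let n := Module.finrank ℝ E
  let e := hsym.eigenvectorBasis (rfl : Module.finrank ℝ E = n)
  let l := hsym.eigenvalues (rfl : Module.finrank ℝ E = n)
  have hTe : ∀ i, T (e i) = l i • e i := fun i => hsym.apply_eigenvectorBasis rfl i
  have hl : ∀ i, 0 ≤ l i := by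
    intro i
    have h1 := hp (e i)
    rw [← hT, hTe, inner_smul_left, real_inner_self_eq_norm_sq, e.norm_eq_one] at h1
    simpa using h1
  let L : E →ₗ[ℝ] E := ∑ i, (√(l i)) • (LinearMap.toSpanSingleton ℝ E (e i) ∘ₗ (innerₛₗ ℝ (e i)))
  have hL : ∀ v, L v = ∑ i, (√(l i) * ⟪e i, v⟫) • e i := by
    intro v
    simp only [L, LinearMap.sum_apply, LinearMap.smul_apply, LinearMap.comp_apply,
      LinearMap.toSpanSingleton_apply, innerₛₗ_apply_apply, smul_smul]
  refine ⟨LinearMap.toContinuousLinearMap L, fun v w => ?_⟩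
  change ⟪L v, L w⟫ = b v w
  rw [hL, hL, ← hT]
  have h1 : T v = ∑ i, (l i * ⟪e i, v⟫) • e i := by
    conv_lhs => rw [← e.sum_repr' v]
    rw [map_sum]
    refine Finset.sum_congr rfl fun i _ => ?_
    rw [map_smul, hTe, smul_smul, mul_comm]
  rw [h1]
  conv_rhs => rw [← e.sum_repr' w]
  rw [sum_inner, sum_inner]
  refine Finset.sum_congr rfl fun i _ => ?_
  rw [inner_sum, inner_sum]
  refine Finset.sum_congr rfl fun j _ => ?_
  rw [inner_smul_left, inner_smul_right, inner_smul_left, inner_smul_right]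
  rcases eq_or_ne i j with rfl | hij
  · have := Real.mul_self_sqrt (hl i)
    simp only [RCLike.conj_to_real]
    linear_combination (⟪e i, v⟫ * ⟪e i, w⟫ * ⟪e i, e i⟫) * this
  · rw [e.orthonormal.2 hij]; simp

variable {P : Par} {κ θ θ' B3 : ℝ} {A : Data X E}

/-- **Start**: the state at level `0`. -/
theorem start [FiniteDimensional ℝ E] [Nonempty X] (S : SmallPar P κ θ θ' B3) (H : Hyp P A) :
    Nonempty (St P A κ θ θ' B3 0) := by
  obtain ⟨p⟩ := ‹Nonempty X›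
  obtain ⟨L, hL⟩ := exists_sqrt (A.g 0 p) (fun v w => H.symm 0 p v w)
    (fun v => by rw [H.gN]; positivity)
  have hr0 : P.r 0 = P.r0 := by simp [Par.r]
  have hr := S.r_pos 0
  have hC0 : ∀ x y : X, dist x y ≤ P.C0 * P.r 0 := fun x y => by
    refine S.C0r 0 ?_
    rw [hr0]; exact H.diam x y
  have hq : ∀ x y : X, dist x y / P.r 0 ≤ 1 := fun x y => by
    rw [div_le_one hr, hr0]
    exact H.diam x y
  have hC1 : 0 ≤ P.C1 := by linarith [S.C1]
  have hθ : 0 ≤ θ := hC1.trans S.θ1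
  have hθ' : 0 ≤ θ' := hC1.trans S.θ'1
  have hdiff : ∀ x v v', |A.g 0 p v v' - A.g 0 x v v'| ≤ P.C1 * A.nn 0 x v * A.nn 0 x v' := by
    intro x v v'
    have h1 := H.h3 0 x p (hC0 x p) v v'
    rw [abs_sub_comm]
    refine h1.trans ?_
    have h2 : P.C1 * (dist x p / P.r 0) ≤ P.C1 := by
      have := mul_le_mul_of_nonneg_left (hq x p) hC1
      linarith
    exact mul_le_mul_of_nonneg_right (mul_le_mul_of_nonneg_right h2 (apply_nonneg _ _))
      (apply_nonneg _ _)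
  refine ⟨{ F := fun x => L (A.u x), J := fun _ => L, Δ := fun x => A.g 0 p - A.g 0 x,
            R := fun _ => 0, symmΔ := ?_, I1 := ?_, I2 := ?_, I3 := ?_, I3Δ := ?_, I3R := ?_, I4 := ?_,
            I5 := ?_ }⟩
  · intro x v v'
    change A.g 0 p v v' - A.g 0 x v v' = A.g 0 p v' v - A.g 0 x v' v
    rw [H.symm 0 p v v', H.symm 0 x v v']
  · intro x y _
    rw [← map_sub, sub_self, norm_zero]
    exact mul_nonneg (mul_nonneg (div_nonneg S.κ0 hr.le) dist_nonneg) (mp_nonneg _ _ _ _)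
  · intro x y _ v
    rw [sub_self, norm_zero]
    refine mul_nonneg (div_nonneg S.κ0 hr.le) (add_nonneg ?_ ?_)
    · exact mul_nonneg dist_nonneg (mp_nonneg _ _ _ _)
    · exact mul_nonneg (apply_nonneg _ _) (mp_nonneg _ _ _ _)
  · intro x v v'
    rw [hL]
    simp
  · intro x v v'
    have h1 := hdiff x v v'
    change |A.g 0 p v v' - A.g 0 x v v'| ≤ _
    refine h1.trans ?_
    have h2 : A.nn 0 x v ≤ mm P A 0 x v := le_max_left _ _
    have h3 : A.nn 0 x v' ≤ mm P A 0 x v' := le_max_left _ _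
    have h4 : (0 : ℝ) ≤ A.nn 0 x v := apply_nonneg _ _
    have h5 : (0 : ℝ) ≤ A.nn 0 x v' := apply_nonneg _ _
    exact mul_le_mul (mul_le_mul S.θ1 h2 h4 hθ) h3 h5 (mul_nonneg hθ (h4.trans h2))
  · intro x v v'
    change |(0 : ℝ)| ≤ _
    rw [abs_zero]
    refine mul_nonneg S.hB3 (Finset.sum_nonneg fun j _ => ?_)
    exact mul_nonneg (mul_nonneg (D_nonneg H j x) (apply_nonneg _ _)) (apply_nonneg _ _)
  · intro x y _ v v'
    have h1 := H.h3 0 x y (hC0 x y) v v'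
    have h0 : (A.g 0 p - A.g 0 x) v v' - (A.g 0 p - A.g 0 y) v v'
        = -(A.g 0 x v v' - A.g 0 y v v') := by
      change (A.g 0 p v v' - A.g 0 x v v') - (A.g 0 p v v' - A.g 0 y v v') = _
      ring
    rw [h0, abs_neg]
    refine h1.trans ?_
    have h2 : A.nn 0 x v ≤ mp P A 0 x y v := nn_le_mp 0 x y v
    have h3 : A.nn 0 x v' ≤ mp P A 0 x y v' := nn_le_mp 0 x y v'
    have h4 : (0 : ℝ) ≤ A.nn 0 x v := apply_nonneg _ _
    have h5 : (0 : ℝ) ≤ A.nn 0 x v' := apply_nonneg _ _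
    have h6 : P.C1 * (dist x y / P.r 0) ≤ θ' / P.r 0 * dist x y := by
      rw [mul_div_assoc', div_mul_eq_mul_div]
      exact div_le_div_of_nonneg_right (mul_le_mul_of_nonneg_right S.θ'1 dist_nonneg) hr.le
    have h7 : P.C1 * (dist x y / P.r 0) * A.nn 0 x v * A.nn 0 x v' ≤
        θ' / P.r 0 * dist x y * mp P A 0 x y v * mp P A 0 x y v' := by
      have h8 : 0 ≤ θ' / P.r 0 * dist x y := mul_nonneg (div_nonneg hθ' hr.le) dist_nonneg
      exact mul_le_mul (mul_le_mul h6 h2 h4 h8) h3 h5 (mul_nonneg h8 (h4.trans h2))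
    refine h7.trans ?_
    have h9 : (0 : ℝ) ≤ mp P A 0 x y (A.u y - A.u x) * A.N 0 x v * mp P A 0 x y v' :=
      mul_nonneg (mul_nonneg (mp_nonneg _ _ _ _) (apply_nonneg _ _)) (mp_nonneg _ _ _ _)
    have h10 : (0 : ℝ) ≤ mp P A 0 x y (A.u y - A.u x) * A.N 0 x v' * mp P A 0 x y v :=
      mul_nonneg (mul_nonneg (mp_nonneg _ _ _ _) (apply_nonneg _ _)) (mp_nonneg _ _ _ _)
    have h11 : 0 ≤ θ' / P.r 0 := div_nonneg hθ' hr.le
    have h12 := mul_nonneg h11 (add_nonneg h9 h10)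
    linarith
  · intro x y hd
    change 4 / 5 * dist x y + P.r 1 / 20 ≤ ‖L (A.u x) - L (A.u y)‖
    rw [← map_sub]
    set w := A.u x - A.u y with hw
    have h1 : ‖L w‖ ^ 2 = A.N 0 p w ^ 2 := by
      rw [← real_inner_self_eq_norm_sq, hL, H.gN]
    have h2 : (1 - P.C1 * P.ε) * A.N 0 x w ^ 2 ≤ ‖L w‖ ^ 2 := by
      have h3 := (abs_le.1 (hdiff x w w)).1
      rw [H.gN, H.gN] at h3
      have h4 := H.h4a 0 x w
      have h5 := mul_le_mul_of_nonneg_left h4 hC1
      rw [h1]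
      nlinarith
    have h3 := (abs_le.1 (H.h1a 0 x y (hC0 x y))).1
    rw [← hw] at h3
    have hce : P.C1 * P.ε ≤ 1 / 20 := by linarith [S.εC]
    have hce0 : 0 ≤ P.C1 * P.ε := mul_nonneg hC1 S.ε0
    have h4 : (1 - P.C1 * P.ε) * A.N 0 x w ≤ ‖L w‖ := by
      refine abs_le_of_sq_le_sq' ?_ (norm_nonneg _) |>.2
      have : 0 ≤ A.N 0 x w ^ 2 := by positivity
      nlinarith [mul_nonneg hce0 this]
    have h5 : P.r 0 = P.Λ * P.r 1 := S.r_succ' 0
    have h6 : P.ε * P.r 0 ≤ P.r 1 / 100 := by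
      rw [h5]
      have := S.εΛ
      have := S.r_pos 1
      nlinarith
    have h7 : P.r 1 ≤ dist x y := hd
    have h8 := S.r_pos 1
    have h9 : 19 / 20 * A.N 0 x w ≤ (1 - P.C1 * P.ε) * A.N 0 x w :=
      mul_le_mul_of_nonneg_right (by linarith) (apply_nonneg _ _)
    linarith

end start

/-- **Iteration**: from the step lemma to the sequence of states. -/
theorem exists_seq {P : Par} {κ θ θ' B3 : ℝ} {A : Data X E}
    (h0 : Nonempty (St P A κ θ θ' B3 0))
    (step : ∀ k (s : St P A κ θ θ' B3 k), ∃ s' : St P A κ θ θ' B3 (k + 1),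
      ∀ x, ‖s'.F x - s.F x‖ ≤ P.r (k + 1) / 100) :
    ∃ s : ∀ k, St P A κ θ θ' B3 k, ∀ k x, ‖(s (k + 1)).F x - (s k).F x‖ ≤ P.r (k + 1) / 100 := by
  obtain ⟨s0⟩ := h0
  choose nx hnx using step
  exact ⟨fun k => Nat.rec s0 (fun k s => nx k s) k, fun k x => hnx k _ x⟩

end BC

/-- **Theorem B from the step lemma.** -/
theorem theoremB_of_step [FiniteDimensional ℝ E] [Nonempty X] {P : Par} {κ θ θ' B3 : ℝ}
    {A : Data X E} (S : SmallPar P κ θ θ' B3) (H : Hyp P A)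
    (step : ∀ k (s : St P A κ θ θ' B3 k), ∃ s' : St P A κ θ θ' B3 (k + 1),
      ∀ x, ‖s'.F x - s.F x‖ ≤ P.r (k + 1) / 100) :
    ∃ G : X → E,
      (∀ x y, 1 / 2 * dist x y ≤ ‖G x - G y‖ ∧ ‖G x - G y‖ ≤ 2 * dist x y) ∧
      (∀ [CompleteSpace X] (x₀ : X) (k : ℕ), DenseAt P A x₀ k → ∀ z, ‖z - G x₀‖ ≤ P.r k / 4 →
        ∃ x, dist x₀ x ≤ 8 * P.r k ∧ G x = z) := by
  obtain ⟨s, hs⟩ := BC.exists_seq (BC.start S H) step
  obtain ⟨G, _, hG⟩ := BC.limit_map S H s hs
  exact ⟨G, hG⟩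

end Vale.Agent.P242.PB
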